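import Vale.Agent.P086.Final

/-- The free group factors `L(F_n)`, `3 ≤ n ≤ ∞`, are all isomorphic. Here `ℓ²(G)` is any Hilbert
space with an orthonormal basis `δ` indexed by `G`, `λ(g)` is the operator `δ h ↦ δ (g * h)`, and
`L(G) = λ(G)''`. -/
theorem Vale.Agent.Results.P086.FreeFactors.result (ι κ : Type) [Countable ι] [Countable κ]
    (hι : 3 ≤ ENat.card ι) (hκ : 3 ≤ ENat.card κ)
    (H K : Type) [NormedAddCommGroup H] [InnerProductSpace ℂ H] [CompleteSpace H]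
    [NormedAddCommGroup K] [InnerProductSpace ℂ K] [CompleteSpace K]
    (δ : HilbertBasis (FreeGroup ι) ℂ H) (ε : HilbertBasis (FreeGroup κ) ℂ K) :
    ∃ (M : VonNeumannAlgebra H) (N : VonNeumannAlgebra K),
      (M : Set (H →L[ℂ] H)) =
        Set.centralizer (Set.centralizer {T | ∃ g, ∀ h, T (δ h) = δ (g * h)}) ∧
      (N : Set (K →L[ℂ] K)) =
        Set.centralizer (Set.centralizer {T | ∃ g, ∀ h, T (ε h) = ε (g * h)}) ∧
      Nonempty (M.toStarSubalgebra ≃⋆ₐ[ℂ] N.toStarSubalgebra) := by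
  obtain ⟨M, hM, ⟨e⟩⟩ := Vale.Agent.P086.exists_vN δ
  obtain ⟨N, hN, ⟨f⟩⟩ := Vale.Agent.P086.exists_vN ε
  obtain ⟨a⟩ := Vale.Agent.P086.iso_card hι
  obtain ⟨b⟩ := Vale.Agent.P086.iso_card hκ
  exact ⟨M, N, hM, hN, ⟨(e.trans a).trans (f.trans b).symm⟩⟩
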